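import Mathlib

/-!
# P088, stage 3, zone B1: the arithmetic of the cut-off conditions

`μ = 1 + m`, `ν = N + 1 + m`; `X = α² T₁`, `Y = T₂`; `Q = α T₁ + T₂ μ / ν`.
-/

noncomputable section

namespace Vale.Agent.P088.R2.H867.Z

/-- The numbers of a point. -/
structure Nr0 (E N m S : ℝ) : Prop where
  m0 : 0 ≤ m
  N1 : 1 ≤ N
  NE : N ^ 2 ≤ E
  mE : 1 + m ≤ E
  S0 : 0 ≤ S
  SS : S ^ 2 = E / (1 + m)

namespace Nr0

variable {E N m S X Y Q α t₁ t₂ T₁ T₂ : ℝ}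

theorem E0 (h : Nr0 E N m S) : 0 < E := by linarith [h.mE, h.m0]

theorem NlE (h : Nr0 E N m S) : N ≤ E := by nlinarith [h.N1, h.NE]

theorem SE (h : Nr0 E N m S) : S ^ 2 * (1 + m) = E := by
  have := h.m0
  rw [h.SS]
  field_simp

theorem S1 (h : Nr0 E N m S) : 1 ≤ S := by
  have h0 := h.m0
  have h1 : 1 ≤ S ^ 2 := by
    rw [h.SS, le_div_iff₀ (by linarith)]
    linarith [h.mE]
  by_contra hc
  have := h.S0
  nlinarith [not_le.1 hc]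

/-- `X = α² T₁`, `Y = T₂`: squares. -/
theorem sqq (ht : 0 ≤ t₁) (ht' : t₁ ≤ T₁) (hT : T₁ ≤ 1) (hu : 0 ≤ t₂) (hu' : t₂ ≤ T₂)
    (hU : T₂ ≤ 1) {s : ℝ} (_hs : 0 ≤ s) :
    (α * t₁ * s + t₂) ^ 2 ≤ 2 * (α ^ 2 * T₁ * s ^ 2 + T₂) := by
  have h1 : t₁ ^ 2 ≤ T₁ := by nlinarith
  have h2 : t₂ ^ 2 ≤ T₂ := by nlinarith
  have h3 := mul_le_mul_of_nonneg_left h1 (mul_nonneg (sq_nonneg α) (sq_nonneg s))
  nlinarith [sq_nonneg (α * t₁ * s - t₂)]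

variable (h : Nr0 E N m S) (hX : 0 ≤ X) (hY : 0 ≤ Y) (hQ : X + Y * ((1 + m) / (N + 1 + m)) ≤ Q)
include h hX hY hQ

theorem Q1 : X ≤ Q ∧ Y * (1 + m) ≤ Q * (N + 1 + m) ∧ 0 ≤ Q := by
  have h0 := h.m0
  have h1 := h.N1
  have hp : 0 < N + 1 + m := by linarith
  have h2 : 0 ≤ Y * ((1 + m) / (N + 1 + m)) := by positivity
  refine ⟨by linarith, ?_, by linarith⟩
  have h3 : Y * ((1 + m) / (N + 1 + m)) ≤ Q := by linarith
  rw [← mul_div_assoc, div_le_iff₀ hp] at h3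
  exact h3

/-- `Y ≤ 2 E Q / μ` and more. -/
theorem Q2 : Y * (1 + m) ≤ 2 * E * Q := by
  obtain ⟨a1, a2, a3⟩ := Q1 h hX hY hQ
  have h1 := h.NlE
  have h2 := h.mE
  have h3 : Q * (N + 1 + m) ≤ Q * (2 * E) := mul_le_mul_of_nonneg_left (by linarith) a3
  linarith

theorem F1 : X * S ^ 4 + Y ≤ 3 * (Q * E ^ 2) := by
  obtain ⟨a1, a2, a3⟩ := Q1 h hX hY hQ
  have a4 := Q2 h hX hY hQ
  have h0 := h.m0
  have h2 := h.mE
  have E1 : 1 ≤ E := by linarith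
  have e1 : S ^ 2 ≤ E := by
    have := h.SE
    nlinarith [sq_nonneg S]
  have e2 : S ^ 4 ≤ E ^ 2 := by
    have : S ^ 4 = S ^ 2 * S ^ 2 := by ring
    rw [this, sq E]
    exact mul_le_mul e1 e1 (sq_nonneg S) (by linarith)
  have e3 : X * S ^ 4 ≤ Q * E ^ 2 :=
    mul_le_mul a1 e2 (by positivity) a3
  have e4 : Y ≤ Y * (1 + m) := by nlinarith
  have e5 : 2 * E * Q ≤ 2 * (Q * E ^ 2) := by nlinarith [mul_nonneg a3 (by linarith : 0 ≤ E)]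
  linarith

theorem F3 : X * S ^ 2 + Y ≤ 2 * (Q * (E * (N + 1 + m) ^ 2 / (1 + m))) := by
  obtain ⟨a1, a2, a3⟩ := Q1 h hX hY hQ
  have h0 := h.m0
  have h1 := h.N1
  have hE := h.E0
  have h2 := h.mE
  have hμ : 0 < 1 + m := by linarith
  rw [← mul_div_assoc, ← mul_div_assoc, le_div_iff₀ hμ]
  have e1 : (X * S ^ 2 + Y) * (1 + m) = X * E + Y * (1 + m) := by
    have := h.SE
    linear_combination X * this
  rw [e1]
  have e2 : 1 ≤ N + 1 + m := by linarith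
  have e3 : 1 ≤ (N + 1 + m) ^ 2 := one_le_pow₀ e2
  have e4 : X * E ≤ Q * E := mul_le_mul_of_nonneg_right a1 hE.le
  have e5 : Q * E ≤ Q * (E * (N + 1 + m) ^ 2) :=
    mul_le_mul_of_nonneg_left (le_mul_of_one_le_right hE.le e3) a3
  have e6 : N + 1 + m ≤ E * (N + 1 + m) ^ 2 := by
    have : 1 ≤ E * (N + 1 + m) := by nlinarith
    nlinarith
  have e7 := mul_le_mul_of_nonneg_left e6 a3
  linarith

theorem F2 : (1 + m) / E * (X * S ^ 4 + Y) ≤ 2 * (Q * (E * (N + 1 + m) ^ 2 / (1 + m))) := by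
  have h0 := h.m0
  have hE := h.E0
  have h2 := h.mE
  refine le_trans ?_ (F3 h hX hY hQ)
  have e1 : (1 + m) / E * (X * S ^ 4 + Y) = X * S ^ 2 + (1 + m) / E * Y := by
    have : S ^ 4 = S ^ 2 * S ^ 2 := by ring
    rw [this]
    have e2 : (1 + m) / E * S ^ 2 = 1 := by
      rw [h.SS]
      field_simp
    linear_combination X * S ^ 2 * e2
  rw [e1]
  have e3 : (1 + m) / E * Y ≤ 1 * Y :=
    mul_le_mul_of_nonneg_right ((div_le_one hE).2 h2) hY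
  linarith

theorem F4 : X * S ^ 2 + Y ≤ 3 * (Q * (E / (1 + m))) := by
  obtain ⟨a1, a2, a3⟩ := Q1 h hX hY hQ
  have a4 := Q2 h hX hY hQ
  have h0 := h.m0
  have hE := h.E0
  have hμ : 0 < 1 + m := by linarith
  rw [← mul_div_assoc, ← mul_div_assoc, le_div_iff₀ hμ]
  have e1 : (X * S ^ 2 + Y) * (1 + m) = X * E + Y * (1 + m) := by
    have := h.SE
    linear_combination X * this
  rw [e1]
  have e4 : X * E ≤ Q * E := mul_le_mul_of_nonneg_right a1 hE.le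
  linarith

theorem F5 : (X * S ^ 2 + Y) * (N + m) ^ 2 ≤ 3 * (Q * (E * (N + 1 + m) ^ 2 / (1 + m))) := by
  have e := F4 h hX hY hQ
  have h0 := h.m0
  have h1 := h.N1
  have hE := h.E0
  have hμ : 0 < 1 + m := by linarith
  obtain ⟨a1, a2, a3⟩ := Q1 h hX hY hQ
  have e1 : (N + m) ^ 2 ≤ (N + 1 + m) ^ 2 := pow_le_pow_left₀ (by linarith) (by linarith) 2
  have e2 : 0 ≤ X * S ^ 2 + Y := by positivity
  calc (X * S ^ 2 + Y) * (N + m) ^ 2 ≤ (3 * (Q * (E / (1 + m)))) * (N + 1 + m) ^ 2 :=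
        mul_le_mul e e1 (sq_nonneg _) (e2.trans e)
    _ = _ := by ring

theorem F6 : E * (1 + m) * (X * S ^ 2 + Y) ≤ 3 * (Q * E ^ 2) := by
  obtain ⟨a1, a2, a3⟩ := Q1 h hX hY hQ
  have a4 := Q2 h hX hY hQ
  have hE := h.E0
  have e1 : E * (1 + m) * (X * S ^ 2 + Y) = E * (X * E + Y * (1 + m)) := by
    have := h.SE
    linear_combination E * X * this
  rw [e1]
  have e4 : X * E ≤ Q * E := mul_le_mul_of_nonneg_right a1 hE.le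
  have := mul_le_mul_of_nonneg_left (add_le_add e4 a4) hE.le
  nlinarith

theorem F7 : (X * S ^ 2 + Y) * (N ^ 2 + E * m) ≤ 3 * (Q * E ^ 2) := by
  have h0 := h.m0
  refine le_trans ?_ (F6 h hX hY hQ)
  have e2 : 0 ≤ X * S ^ 2 + Y := by positivity
  have e1 : N ^ 2 + E * m ≤ E * (1 + m) := by nlinarith [h.NE]
  have := mul_le_mul_of_nonneg_left e1 e2
  linarith

theorem F8 : E * (1 + m) * (X + Y) ≤ 2 * (Q * (E * (N + 1 + m) ^ 2 / (1 + m))) := by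
  obtain ⟨a1, a2, a3⟩ := Q1 h hX hY hQ
  have h0 := h.m0
  have h1 := h.N1
  have hE := h.E0
  have hμ : 0 < 1 + m := by linarith
  rw [← mul_div_assoc, ← mul_div_assoc, le_div_iff₀ hμ]
  have e1 : (1 + m) ^ 2 ≤ (N + 1 + m) ^ 2 := pow_le_pow_left₀ hμ.le (by linarith) 2
  have e2 : X * (1 + m) ^ 2 ≤ Q * (N + 1 + m) ^ 2 := mul_le_mul a1 e1 (sq_nonneg _) a3
  have e3 : Y * (1 + m) * (1 + m) ≤ Q * (N + 1 + m) * (N + 1 + m) :=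
    mul_le_mul a2 (by linarith) hμ.le (by positivity)
  have e4 := mul_le_mul_of_nonneg_left (add_le_add e2 e3) hE.le
  nlinarith

theorem F9 : (X + Y) * (N ^ 2 + E * m) ≤ 2 * (Q * (E * (N + 1 + m) ^ 2 / (1 + m))) := by
  refine le_trans ?_ (F8 h hX hY hQ)
  have e1 : N ^ 2 + E * m ≤ E * (1 + m) := by nlinarith [h.NE]
  have := mul_le_mul_of_nonneg_left e1 (add_nonneg hX hY)
  linarith

omit hQ hX in
theorem F10 : X * S ^ 2 + Y ≤ (X / (1 + m) ^ 2 + Y / E) * (E * (1 + m)) := by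
  have h0 := h.m0
  have hE := h.E0
  have hμ : 0 < 1 + m := by linarith
  have e1 : (X / (1 + m) ^ 2 + Y / E) * (E * (1 + m)) = X * (E / (1 + m)) + Y * (1 + m) := by
    field_simp
  rw [e1, ← h.SS]
  nlinarith

omit hQ in
theorem F11 : X + Y ≤ (X / (1 + m) ^ 2 + Y / E) * (E * (1 + m)) := by
  refine le_trans ?_ (F10 h hY)
  have := h.S1
  nlinarith [mul_le_mul_of_nonneg_left (by nlinarith : 1 ≤ S ^ 2) hX]

end Nr0

/-- All numbers of a point. -/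
structure Sc (E N m S α t₁ t₂ T₁ T₂ : ℝ) : Prop where
  nr : Nr0 E N m S
  α0 : 0 ≤ α
  α1 : α ≤ 1
  t0 : 0 ≤ t₁
  tT : t₁ ≤ T₁
  T1 : T₁ ≤ 1
  u0 : 0 ≤ t₂
  uU : t₂ ≤ T₂
  U1 : T₂ ≤ 1

/-- The factor of the costs. -/
def Qs (N m α T₁ T₂ : ℝ) : ℝ := α * T₁ + T₂ * ((1 + m) / (N + 1 + m))

namespace Sc

variable {E N m S α t₁ t₂ T₁ T₂ : ℝ} (h : Sc E N m S α t₁ t₂ T₁ T₂)
include h

theorem T0 : 0 ≤ T₁ := h.t0.trans h.tT

theorem U0 : 0 ≤ T₂ := h.u0.trans h.uU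

theorem X0 : 0 ≤ α ^ 2 * T₁ := mul_nonneg (sq_nonneg _) h.T0

theorem hQ : α ^ 2 * T₁ + T₂ * ((1 + m) / (N + 1 + m)) ≤ Qs N m α T₁ T₂ := by
  have := mul_le_mul_of_nonneg_right (by nlinarith [h.α0, h.α1] : α ^ 2 ≤ α) h.T0
  unfold Qs
  linarith

theorem Q0 : 0 ≤ Qs N m α T₁ T₂ := (h.nr.Q1 h.X0 h.U0 h.hQ).2.2

theorem s1 : (α * t₁ * S + t₂) ^ 2 ≤ 2 * (α ^ 2 * T₁ * S ^ 2 + T₂) :=
  Nr0.sqq h.t0 h.tT h.T1 h.u0 h.uU h.U1 h.nr.S0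

theorem s2 : (α * t₁ + t₂) ^ 2 ≤ 2 * (α ^ 2 * T₁ + T₂) := by
  have := Nr0.sqq (α := α) h.t0 h.tT h.T1 h.u0 h.uU h.U1 zero_le_one
  simpa using this

theorem s3 : (α * t₁ * S ^ 2 + t₂) ^ 2 ≤ 2 * (α ^ 2 * T₁ * S ^ 4 + T₂) := by
  have := Nr0.sqq (α := α) h.t0 h.tT h.T1 h.u0 h.uU h.U1 (sq_nonneg S)
  have e : (S ^ 2) ^ 2 = S ^ 4 := by ring
  rwa [e] at this

/-- The same numbers with `t = T`. -/
theorem top : Sc E N m S α T₁ T₂ T₁ T₂ := ⟨h.nr, h.α0, h.α1, h.T0, le_rfl, h.T1, h.U0, le_rfl, h.U1⟩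

theorem L1 : (α * t₁ * S ^ 2 + t₂) ^ 2 ≤ 6 * (Qs N m α T₁ T₂ * E ^ 2) := by
  linarith [h.s3, h.nr.F1 h.X0 h.U0 h.hQ]

theorem L2 : (1 + m) / E * (α * t₁ * S ^ 2 + t₂) ^ 2 ≤
    4 * (Qs N m α T₁ T₂ * (E * (N + 1 + m) ^ 2 / (1 + m))) := by
  have h1 := h.nr.F2 h.X0 h.U0 h.hQ
  have h0 := h.nr.m0
  have hE := h.nr.E0
  have h2 := mul_le_mul_of_nonneg_left h.s3 (by positivity : 0 ≤ (1 + m) / E)
  linarith

theorem L3 : (α * t₁ * S + t₂) ^ 2 ≤ 4 * (Qs N m α T₁ T₂ * (E * (N + 1 + m) ^ 2 / (1 + m))) := by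
  linarith [h.s1, h.nr.F3 h.X0 h.U0 h.hQ]

theorem L4 : (α * t₁ * S + t₂) ^ 2 ≤ 6 * (Qs N m α T₁ T₂ * (E / (1 + m))) := by
  linarith [h.s1, h.nr.F4 h.X0 h.U0 h.hQ]

theorem L5 : (α * t₁ * S + t₂) ^ 2 * (N + m) ^ 2 ≤
    6 * (Qs N m α T₁ T₂ * (E * (N + 1 + m) ^ 2 / (1 + m))) := by
  linarith [mul_le_mul_of_nonneg_right h.s1 (sq_nonneg (N + m)), h.nr.F5 h.X0 h.U0 h.hQ]

theorem L6 : E * (1 + m) * (α * t₁ * S + t₂) ^ 2 ≤ 6 * (Qs N m α T₁ T₂ * E ^ 2) := by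
  have h0 := h.nr.m0
  have hE := h.nr.E0
  have h2 := mul_le_mul_of_nonneg_left h.s1 (by positivity : 0 ≤ E * (1 + m))
  linarith [h.nr.F6 h.X0 h.U0 h.hQ]

theorem L7 : (α * t₁ * S + t₂) ^ 2 * (N ^ 2 + E * m) ≤ 6 * (Qs N m α T₁ T₂ * E ^ 2) := by
  have h0 := h.nr.m0
  have hE := h.nr.E0
  have h2 := mul_le_mul_of_nonneg_right h.s1 (by positivity : 0 ≤ N ^ 2 + E * m)
  linarith [h.nr.F7 h.X0 h.U0 h.hQ]

theorem L8 : E * (1 + m) * (α * t₁ + t₂) ^ 2 ≤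
    4 * (Qs N m α T₁ T₂ * (E * (N + 1 + m) ^ 2 / (1 + m))) := by
  have h0 := h.nr.m0
  have hE := h.nr.E0
  have h2 := mul_le_mul_of_nonneg_left h.s2 (by positivity : 0 ≤ E * (1 + m))
  linarith [h.nr.F8 h.X0 h.U0 h.hQ]

theorem L9 : (α * t₁ + t₂) ^ 2 * (N ^ 2 + E * m) ≤
    4 * (Qs N m α T₁ T₂ * (E * (N + 1 + m) ^ 2 / (1 + m))) := by
  have h0 := h.nr.m0
  have hE := h.nr.E0
  have h2 := mul_le_mul_of_nonneg_right h.s2 (by positivity : 0 ≤ N ^ 2 + E * m)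
  linarith [h.nr.F9 h.X0 h.U0 h.hQ]

theorem L10 : (α * t₁ * S + t₂) ^ 2 ≤
    2 * ((α ^ 2 * T₁ / (1 + m) ^ 2 + T₂ / E) * (E * (1 + m))) := by
  linarith [h.s1, h.nr.F10 (X := α ^ 2 * T₁) h.U0]

theorem L11 : (α * t₁ + t₂) ^ 2 ≤
    2 * ((α ^ 2 * T₁ / (1 + m) ^ 2 + T₂ / E) * (E * (1 + m))) := by
  linarith [h.s2, h.nr.F11 h.X0 h.U0]

theorem L14 : (1 + m) / E * (α * t₁ * S + t₂) ^ 2 ≤ (α * t₁ + t₂) ^ 2 := by
  have h0 := h.nr.m0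
  have hE := h.nr.E0
  have S1 := h.nr.S1
  have e1 : (1 + m) / E = 1 / S ^ 2 := by
    rw [h.nr.SS]; field_simp
  have S0 : 0 < S := by linarith
  have e2 : 1 / S ^ 2 * (α * t₁ * S + t₂) ^ 2 = (α * t₁ + t₂ / S) ^ 2 := by field_simp
  rw [e1, e2]
  have h1 : t₂ / S ≤ t₂ := div_le_self h.u0 S1
  have h2 : 0 ≤ t₂ / S := div_nonneg h.u0 S0.le
  have h3 : 0 ≤ α * t₁ := mul_nonneg h.α0 h.t0
  exact pow_le_pow_left₀ (by linarith) (by linarith) 2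

/-- The energies of `a + b`. -/
theorem EB {A c cW n G F K : ℝ} (hn : 0 ≤ n) (hW : 0 ≤ cW)
    (hG : G ≤ 8 * (n * (c * (α * T₁ * S ^ 2 + T₂)) ^ 2))
    (hF : F ≤ cW * (N ^ 2 + E * m)) (hK : 6 * A ^ 2 + 48 * n * c ^ 2 + 24 * A ^ 2 * cW ≤ K) :
    E * (1 + m) * (A * (α * t₁ * S + t₂)) ^ 2 + G + 4 * (A * (α * t₁ * S + t₂)) ^ 2 * F ≤
      K * (Qs N m α T₁ T₂ * E ^ 2) := by
  have AA := sq_nonneg A
  have r1 := mul_le_mul_of_nonneg_left h.L6 AA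
  have r2 := mul_le_mul_of_nonneg_left h.top.L1 (by positivity : 0 ≤ 8 * (n * c ^ 2))
  have r3 := mul_le_mul_of_nonneg_left h.L7 (by positivity : 0 ≤ 4 * (A ^ 2 * cW))
  have r5 := mul_le_mul_of_nonneg_left hF
    (by positivity : 0 ≤ 4 * (A * (α * t₁ * S + t₂)) ^ 2)
  have r4 := mul_le_mul_of_nonneg_right hK (by have := h.Q0; positivity :
    0 ≤ Qs N m α T₁ T₂ * E ^ 2)
  linarith

/-- The energies of `a - b`. -/
theorem EC {A c cW n G F K : ℝ} (hn : 0 ≤ n) (hW : 0 ≤ cW)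
    (hG : G ≤ 8 * (n * (c * (α * T₁ * S + T₂)) ^ 2))
    (hF : F ≤ cW * (N ^ 2 + E * m)) (hK : 6 * A ^ 2 + 48 * n * c ^ 2 + 24 * A ^ 2 * cW ≤ K) :
    E * (1 + m) * (A * (α * t₁ + t₂)) ^ 2 + G + 4 * (A * (α * t₁ + t₂)) ^ 2 * F ≤
      K * (Qs N m α T₁ T₂ * (E * (N + 1 + m) ^ 2 / (1 + m))) := by
  have AA := sq_nonneg A
  have h0 := h.nr.m0
  have hE := h.nr.E0
  have Q0 := h.Q0
  have r1 := mul_le_mul_of_nonneg_left h.L8 AA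
  have r2 := mul_le_mul_of_nonneg_left h.top.L3 (by positivity : 0 ≤ 8 * (n * c ^ 2))
  have r3 := mul_le_mul_of_nonneg_left h.L9 (by positivity : 0 ≤ 4 * (A ^ 2 * cW))
  have r5 := mul_le_mul_of_nonneg_left hF
    (by positivity : 0 ≤ 4 * (A * (α * t₁ + t₂)) ^ 2)
  set f := Qs N m α T₁ T₂ * (E * (N + 1 + m) ^ 2 / (1 + m)) with hf
  have f0 : 0 ≤ f := by positivity
  have r4 := mul_le_mul_of_nonneg_right hK f0
  have r6 : 0 ≤ A ^ 2 * f := by positivity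
  have r7 : 0 ≤ n * c ^ 2 * f := by positivity
  have r8 : 0 ≤ A ^ 2 * cW * f := by positivity
  linarith

end Sc

end Vale.Agent.P088.R2.H867.Z
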