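import Vale.Agent.P088.R2.H867.Z.TB
import Vale.Agent.P088.R2.H867.Z.HoN
import Vale.Agent.P088.R2.H516.O.Out

/-!
# P088, stage 3, zone B1: the cut-off conditions at a point

The letters `g = E / (1 + m)`, `e = E²`, `h = (1 + m) / E`, `f₀ = E (N + 1 + m)² / (1 + m)`,
`w = E (1 + m)`; the majorants `ψ = A (α S t₁ + t₂)`, `om = A (α t₁ + t₂)`, `S = √g`.
-/

open Set Filter
open scoped Topology ContDiff Matrix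

noncomputable section

namespace Vale.Agent.P088.R2.H867.Z

open Vale.Agent.P088.LR Vale.Agent.P088.HY Vale.Agent.P088.R2.H961.GW Vale.Agent.P088.R2.H464.Cu
open Vale.Agent.P088.R2.H932.EP (JB ep sx_s sy_s)
open Vale.Agent.P088.R2.H644 (Ch.Gr)
open Vale.Agent.P088.R2.H86.Z (El)
open Vale.Agent.P088.R2.H516.O (HO D2 G_le_D2 sf)

variable {n : ℕ}

/-- `m = 2 E ρ`. -/
def mB (En ρ : VV n → ℝ) (z : VV n) : ℝ := En z * (2 * ρ z)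

def gB (En ρ : VV n → ℝ) (z : VV n) : ℝ := En z / (1 + mB En ρ z)
def eB (En : VV n → ℝ) (z : VV n) : ℝ := En z ^ 2
def hB (En ρ : VV n → ℝ) (z : VV n) : ℝ := (1 + mB En ρ z) / En z
def fB (En ρ N : VV n → ℝ) (z : VV n) : ℝ :=
  En z * (N z + 1 + mB En ρ z) ^ 2 / (1 + mB En ρ z)
def wB (En ρ : VV n → ℝ) (z : VV n) : ℝ := En z * (1 + mB En ρ z)

/-- The factors of the costs. -/
def ZB (K α : ℝ) (En ρ N T₁ T₂ : VV n → ℝ) (z : VV n) : ℝ :=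
  K * Qs (N z) (mB En ρ z) α (T₁ z) (T₂ z)

def ZB' (K α : ℝ) (En ρ T₁ T₂ : VV n → ℝ) (z : VV n) : ℝ :=
  K * (α ^ 2 * T₁ z / (1 + mB En ρ z) ^ 2 + T₂ z / En z)

/-- The hypotheses at a point. -/
structure Hp (s₁ s₂ : MF n) (W χ ψ om En ρ N T₁ T₂ : VV n → ℝ) (c₁ c cW A α t₁ t₂ S : ℝ)
    (z : VV n) : Prop where
  sc : Sc (En z) (N z) (mB En ρ z) S α t₁ t₂ (T₁ z) (T₂ z)
  mt : Mt s₁ s₂ S z
  el₁ : El (sx s₁) z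
  el₂ : El (sy s₂) z
  c10 : 0 ≤ c₁
  cc : c₁ ≤ c
  W0 : 0 ≤ cW
  A1 : 4 * (n + 1) ^ 2 * c₁ ≤ A
  χb : TB S (c₁ * (α * t₁)) (c₁ * t₂) χ z
  ψe : ψ z = A * (α * t₁ * S + t₂)
  oe : om z = A * (α * t₁ + t₂)
  ψd : ∀ i, |(sx s₁).D i ψ z| ≤ c * (α * T₁ z * S ^ 2 + T₂ z) ∧
    |(sy s₂).D i ψ z| ≤ c * (α * T₁ z * S ^ 2 + T₂ z)
  od : ∀ i, |(sx s₁).D i om z| ≤ c * (α * T₁ z * S + T₂ z) ∧
    |(sy s₂).D i om z| ≤ c * (α * T₁ z * S + T₂ z)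
  F₁ : (sx s₁).F W z ≤ cW * (N z ^ 2 + En z * mB En ρ z)
  F₂ : (sy s₂).F W z ≤ cW * (N z ^ 2 + En z * mB En ρ z)
  Wp : ∀ i, |(sx s₁).D i W z + (sy s₂).D i W z| ≤ cW * (N z + mB En ρ z)

/-- The constant. -/
def KB (n : ℕ) (c cW A : ℝ) : ℝ := 1000 * (n + 1) ^ 4 * (c ^ 2 + A ^ 2) * (1 + cW) ^ 2

theorem sum_sq {f : Fin n → ℝ} {b : ℝ} (h : ∀ i, |f i| ≤ b) : ∑ i, f i ^ 2 ≤ n * b ^ 2 := by
  have h1 : ∀ i ∈ Finset.univ, f i ^ 2 ≤ b ^ 2 := fun i _ => by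
    rw [← sq_abs]
    exact pow_le_pow_left₀ (abs_nonneg _) (h i) 2
  refine (Finset.sum_le_sum h1).trans (le_of_eq ?_)
  rw [Finset.sum_const, Finset.card_univ, Fintype.card_fin, nsmul_eq_mul]

/-- All fields of `HO` except `cr`. -/
structure HO' (s₁ s₂ : MF n) (W χ ψ om w g e h f₀ Z Z' : VV n → ℝ) (z : VV n) : Prop where
  w0 : 0 < w z
  h0 : 0 ≤ h z
  g0 : 0 ≤ g z
  e0 : 0 ≤ e z
  Z0 : 0 ≤ Z z
  z0 : 0 ≤ Z' z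
  f0 : 0 ≤ f₀ z
  d1 : ∑ i, (sx s₁).D i χ z ^ 2 ≤ ψ z ^ 2
  d2 : ∑ i, (sy s₂).D i χ z ^ 2 ≤ ψ z ^ 2
  dd : ∑ i, ((sx s₁).D i χ z + (sy s₂).D i χ z) ^ 2 ≤ om z ^ 2
  l1 : (sx s₁).Λ χ z ^ 2 + (sy s₂).Λ χ z ^ 2 ≤ Z z * e z
  l2 : h z * ((sx s₁).Λ χ z ^ 2 + (sy s₂).Λ χ z ^ 2) ≤ Z z * f₀ z
  l3 : ((sx s₁).Λ χ z - (sy s₂).Λ χ z) ^ 2 ≤ Z z * f₀ z
  hw : h z * ψ z ^ 2 ≤ om z ^ 2
  od : ∑ i, (Ch.Gr (sx s₁) χ i z + Ch.Gr (sy s₂) χ i z) ^ 2 ≤ om z ^ 2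
  gg : ψ z ^ 2 ≤ Z z * g z
  kk : ψ z ^ 2 * ∑ i, ((sx s₁).D i W z + (sy s₂).D i W z) ^ 2 ≤ Z z * f₀ z
  b1 : w z * ψ z ^ 2 + 4 * (sx s₁).Γ ψ ψ z + 4 * ψ z ^ 2 * (sx s₁).F W z ≤ Z z * e z
  b2 : w z * ψ z ^ 2 + 4 * (sy s₂).Γ ψ ψ z + 4 * ψ z ^ 2 * (sy s₂).F W z ≤ Z z * e z
  c1 : w z * om z ^ 2 + 4 * (sx s₁).Γ om om z + 4 * om z ^ 2 * (sx s₁).F W z ≤ Z z * f₀ z
  c2 : w z * om z ^ 2 + 4 * (sy s₂).Γ om om z + 4 * om z ^ 2 * (sy s₂).F W z ≤ Z z * f₀ z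
  k1 : ψ z ^ 2 ≤ Z' z * w z
  k2 : om z ^ 2 ≤ Z' z * w z
  /-- helper856's condition -/
  nd : ∑ i, ∑ j, ((sx s₁).D i (fun y => (sx s₁).D j χ y + (sy s₂).D j χ y) z -
    (sy s₂).D i (fun y => (sx s₁).D j χ y + (sy s₂).D j χ y) z) ^ 2 ≤ Z z * f₀ z


/-- The mixed second derivative. -/
theorem nd_eq {s₁ s₂ : MF n} {f : VV n → ℝ} {z : VV n} (i j : Fin n) :
    (sx s₁).D i (fun y => (sx s₁).D j f y + (sy s₂).D j f y) z -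
      (sy s₂).D i (fun y => (sx s₁).D j f y + (sy s₂).D j f y) z =
      2 * H867.Z.d2 f z (ep (Sum.inl j)) (ep (Sum.inr i)) := by
  have e0 : (fun y => (sx s₁).D j f y + (sy s₂).D j f y) =
      fun y => fderiv ℝ f y (ep (Sum.inl j)) := by
    funext y
    rw [Dx1, Dy1, ← map_add]
    congr 1
    simp [ep]
  rw [e0, Dx1, Dy1, ← map_sub]
  have e1 : ((Pi.single i 1, 0) : VV n) - (0, Pi.single i 1) = (2 : ℝ) • ep (Sum.inr i) := by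
    refine Prod.ext ?_ ?_ <;> funext k <;>
      simp [ep, Pi.single_apply]
  rw [e1, map_smul, smul_eq_mul]
  rfl

theorem HO'.ho {s₁ s₂ : MF n} {W χ ψ om w g e h f₀ Z Z' : VV n → ℝ} {z : VV n}
    (H : HO' s₁ s₂ W χ ψ om w g e h f₀ Z Z' z) (cr : ∀ (A B : Fin n → ℝ) (x y : ℝ),
    |sf (sx s₁) (sy s₂) 0 0 W z (fun i => χ z * A i - x * (sx s₁).D i χ z)
        (fun i => χ z * B i - y * (sy s₂).D i χ z) (χ z * x) (χ z * y) -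
      χ z ^ 2 * sf (sx s₁) (sy s₂) 0 0 W z A B x y| ≤
    Z z * ((∑ i, A i ^ 2) + (∑ i, B i ^ 2) + g z * (∑ i, (A i - B i) ^ 2) +
      ((sx s₁).F W z * x ^ 2 + (sy s₂).F W z * y ^ 2) + e z * (x + y) ^ 2 +
        f₀ z * (x - y) ^ 2)) :
    HO (sx s₁) (sy s₂) 0 0 W χ ψ om w g e h f₀ Z Z' z where
  w0 := H.w0
  h0 := H.h0
  g0 := H.g0
  e0 := H.e0
  Z0 := H.Z0
  z0 := H.z0
  f0 := H.f0
  d1 := H.d1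
  d2 := H.d2
  l1 := H.l1
  l2 := H.l2
  l3 := H.l3
  hw := H.hw
  od := H.od
  gg := H.gg
  kk := H.kk
  b1 := by simpa using H.b1
  b2 := by simpa using H.b2
  c1 := by simpa using H.c1
  c2 := by simpa using H.c2
  k1 := H.k1
  k2 := H.k2
  cr := cr

end Vale.Agent.P088.R2.H867.Z
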