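import Vale.Agent.P088.R2.H867.Z.Ho1

/-!
# P088, stage 3, zone B1: the cut-off conditions at a point, the proof
-/

open Set Filter
open scoped Topology ContDiff Matrix

noncomputable section

namespace Vale.Agent.P088.R2.H867.Z

open Vale.Agent.P088.LR Vale.Agent.P088.HY Vale.Agent.P088.R2.H961.GW Vale.Agent.P088.R2.H464.Cu
open Vale.Agent.P088.R2.H932.EP (JB ep sx_s sy_s)
open Vale.Agent.P088.R2.H644 (Ch.Gr)
open Vale.Agent.P088.R2.H86.Z (El)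
open Vale.Agent.P088.R2.H516.O (HO D2 G_le_D2 sf)

variable {n : ℕ}

/-- The constants. -/
theorem KB_big {c cW A : ℝ} (hW : 0 ≤ cW) :
    (432 * n ^ 4 * c ^ 2 ≤ KB n c cW A) ∧
    6 * A ^ 2 + 48 * n * c ^ 2 + 24 * A ^ 2 * cW ≤ KB n c cW A ∧
    6 * A ^ 2 * (n * cW ^ 2) ≤ KB n c cW A ∧ 16 * n ^ 2 * c ^ 2 ≤ KB n c cW A ∧
    6 * A ^ 2 ≤ KB n c cW A ∧ 0 ≤ KB n c cW A := by
  have hn : (0 : ℝ) ≤ n := Nat.cast_nonneg n
  have h1 : (1 : ℝ) ≤ n + 1 := by linarith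
  have p0 : (1 : ℝ) ≤ ((n : ℝ) + 1) ^ 4 := one_le_pow₀ h1
  have p1 : (n : ℝ) ≤ ((n : ℝ) + 1) ^ 4 := by
    have : ((n : ℝ) + 1) ^ 1 ≤ ((n : ℝ) + 1) ^ 4 := pow_le_pow_right₀ h1 (by norm_num)
    linarith
  have p2 : (n : ℝ) ^ 2 ≤ ((n : ℝ) + 1) ^ 4 :=
    (pow_le_pow_left₀ hn (by linarith) 2).trans (pow_le_pow_right₀ h1 (by norm_num))
  have p4 : (n : ℝ) ^ 4 ≤ ((n : ℝ) + 1) ^ 4 := pow_le_pow_left₀ hn (by linarith) 4
  have w0 : 1 ≤ (1 + cW) ^ 2 := one_le_pow₀ (by linarith)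
  have w1 : cW ≤ (1 + cW) ^ 2 := by nlinarith
  have w2 : cW ^ 2 ≤ (1 + cW) ^ 2 := by nlinarith
  unfold KB
  set p := ((n : ℝ) + 1) ^ 4
  set w := (1 + cW) ^ 2
  have c0 := sq_nonneg c
  have a0 := sq_nonneg A
  have e1 : ∀ {x : ℝ}, 0 ≤ x → x ≤ p → x * c ^ 2 ≤ p * (c ^ 2 + A ^ 2) * w := by
    intro x hx0 hx
    have r1 := mul_le_mul hx (by linarith : c ^ 2 ≤ c ^ 2 + A ^ 2) c0 (by linarith)
    have r2 : p * (c ^ 2 + A ^ 2) ≤ p * (c ^ 2 + A ^ 2) * w :=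
      le_mul_of_one_le_right (by positivity) w0
    linarith
  have e2 : ∀ {x y : ℝ}, 0 ≤ x → x ≤ p → 0 ≤ y → y ≤ w → A ^ 2 * (x * y) ≤
      p * (c ^ 2 + A ^ 2) * w := by
    intro x y hx0 hx hy0 hy
    have r1 := mul_le_mul hx hy hy0 (by linarith)
    have r2 := mul_le_mul (by linarith : A ^ 2 ≤ c ^ 2 + A ^ 2) r1 (mul_nonneg hx0 hy0)
      (by linarith)
    nlinarith
  have q1 := e1 (by positivity) p4
  have q2 := e1 hn p1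
  have q3 := e1 (by positivity) p2
  have q4 := e2 zero_le_one p0 zero_le_one w0
  have q5 := e2 zero_le_one p0 hW w1
  have q6 := e2 hn p1 (sq_nonneg _) w2
  have q7 : 0 ≤ p * (c ^ 2 + A ^ 2) * w := by positivity
  refine ⟨?_, ?_, ?_, ?_, ?_, ?_⟩ <;> linarith

theorem stp {x a y z k K : ℝ} (h1 : x ≤ a * y) (h2 : y ≤ k * z) (ha : 0 ≤ a) (hz : 0 ≤ z)
    (hK : a * k ≤ K) : x ≤ K * z := by
  have h3 := mul_le_mul_of_nonneg_left h2 ha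
  have h4 := mul_le_mul_of_nonneg_right hK hz
  linarith

theorem pn_le (n : ℕ) : (n : ℝ) ≤ (n + 1) ^ 4 := by
  have hn : (0 : ℝ) ≤ n := Nat.cast_nonneg n
  have : ((n : ℝ) + 1) ^ 1 ≤ ((n : ℝ) + 1) ^ 4 := pow_le_pow_right₀ (by linarith) (by norm_num)
  linarith

theorem pn_le3 (n : ℕ) : (n : ℝ) * n ^ 2 ≤ (n + 1) ^ 4 := by
  have hn : (0 : ℝ) ≤ n := Nat.cast_nonneg n
  have h1 : (n : ℝ) * n ^ 2 ≤ (n + 1) ^ 3 := by
    have : (n : ℝ) * n ^ 2 = n ^ 3 := by ring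
    rw [this]; exact pow_le_pow_left₀ hn (by linarith) 3
  exact h1.trans (pow_le_pow_right₀ (by linarith) (by norm_num))

section fields

variable {s₁ s₂ : MF n} {W χ ψ om En ρ N T₁ T₂ : VV n → ℝ} {c₁ c cW A α t₁ t₂ S : ℝ}
  {z : VV n} (H : Hp s₁ s₂ W χ ψ om En ρ N T₁ T₂ c₁ c cW A α t₁ t₂ S z)
include H

theorem Hp.ta1 : 0 ≤ c₁ * (α * t₁) := mul_nonneg H.c10 (mul_nonneg H.sc.α0 H.sc.t0)

theorem Hp.tb1 : 0 ≤ c₁ * t₂ := mul_nonneg H.c10 H.sc.u0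

theorem Hp.c0 : 0 ≤ c := H.c10.trans H.cc

theorem Hp.ta : 0 ≤ c * (α * t₁) := mul_nonneg H.c0 (mul_nonneg H.sc.α0 H.sc.t0)

theorem Hp.tb : 0 ≤ c * t₂ := mul_nonneg H.c0 H.sc.u0

theorem Hp.χc : TB S (c * (α * t₁)) (c * t₂) χ z :=
  H.χb.mono H.sc.nr.S0 (mul_le_mul_of_nonneg_right H.cc (mul_nonneg H.sc.α0 H.sc.t0))
    (mul_le_mul_of_nonneg_right H.cc H.sc.u0)

theorem Hp.fB0 : 0 ≤ Qs (N z) (mB En ρ z) α (T₁ z) (T₂ z) * fB En ρ N z := by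
  have h0 := H.sc.nr.m0
  have hE := H.sc.nr.E0
  have := H.sc.Q0
  unfold fB
  positivity

theorem Hp.A2 : 16 * ((n : ℝ) + 1) ^ 4 * c₁ ^ 2 ≤ A ^ 2 := by
  have hn : (0 : ℝ) ≤ n := Nat.cast_nonneg n
  have c0 := H.c10
  have := pow_le_pow_left₀ (by positivity) H.A1 2
  refine le_trans (le_of_eq ?_) this
  ring

theorem Hp.d1 : ∑ i, (sx s₁).D i χ z ^ 2 ≤ ψ z ^ 2 ∧ ∑ i, (sy s₂).D i χ z ^ 2 ≤ ψ z ^ 2 ∧
    ∑ i, ((sx s₁).D i χ z + (sy s₂).D i χ z) ^ 2 ≤ om z ^ 2 := by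
  have D := fun i => H.χb.D (s₁ := s₁) (s₂ := s₂) H.sc.nr.S1 H.ta1 H.tb1 i
  have eab : c₁ * (α * t₁) * S + c₁ * t₂ = c₁ * (α * t₁ * S + t₂) := by ring
  have eab' : c₁ * (α * t₁) + c₁ * t₂ = c₁ * (α * t₁ + t₂) := by ring
  simp only [eab, eab'] at D
  have hA2 := H.A2
  have cc := sq_nonneg c₁
  have h0 := mul_le_mul_of_nonneg_right (pn_le n) cc
  have h00 : 0 ≤ ((n : ℝ) + 1) ^ 4 * c₁ ^ 2 := by positivity
  have h1 : (n : ℝ) * (9 / 4 * c₁ ^ 2) ≤ A ^ 2 := by linarith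
  have h2 : (n : ℝ) * c₁ ^ 2 ≤ A ^ 2 := by linarith
  have k1 := mul_le_mul_of_nonneg_right h1 (sq_nonneg (α * t₁ * S + t₂))
  have k2 := mul_le_mul_of_nonneg_right h2 (sq_nonneg (α * t₁ + t₂))
  rw [H.ψe, H.oe]
  refine ⟨?_, ?_, ?_⟩
  · exact (sum_sq fun i => (D i).1).trans (le_trans (le_of_eq (by ring)) (k1.trans (le_of_eq (by ring))))
  · exact (sum_sq fun i => (D i).2.1).trans
      (le_trans (le_of_eq (by ring)) (k1.trans (le_of_eq (by ring))))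
  · exact (sum_sq fun i => (D i).2.2).trans
      (le_trans (le_of_eq (by ring)) (k2.trans (le_of_eq (by ring))))

theorem Hp.ogr : ∑ i, (Ch.Gr (sx s₁) χ i z + Ch.Gr (sy s₂) χ i z) ^ 2 ≤ om z ^ 2 := by
  have G := fun i => H.χb.G H.mt H.sc.nr.S1 H.ta1 H.tb1 i
  have eab' : c₁ * (α * t₁) + c₁ * t₂ = c₁ * (α * t₁ + t₂) := by ring
  simp only [eab'] at G
  have hA2 := H.A2
  have cc := sq_nonneg c₁
  have h1 : (n : ℝ) * n ^ 2 * (16 * c₁ ^ 2) ≤ A ^ 2 := by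
    have := mul_le_mul_of_nonneg_right (pn_le3 n) (by positivity : 0 ≤ 16 * c₁ ^ 2)
    linarith
  have k2 := mul_le_mul_of_nonneg_right h1 (sq_nonneg (α * t₁ + t₂))
  rw [H.oe]
  exact (sum_sq fun i => G i).trans
      (le_trans (le_of_eq (by ring)) (k2.trans (le_of_eq (by ring))))

theorem Hp.Lq : (sx s₁).Λ χ z ^ 2 + (sy s₂).Λ χ z ^ 2 ≤
      72 * n ^ 4 * c ^ 2 * (α * t₁ * S ^ 2 + t₂) ^ 2 ∧
    ((sx s₁).Λ χ z - (sy s₂).Λ χ z) ^ 2 ≤ 100 * n ^ 4 * c ^ 2 * (α * t₁ * S + t₂) ^ 2 := by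
  have L := H.χc.L H.mt H.sc.nr.S1 H.ta H.tb
  have eab : c * (α * t₁) * S + c * t₂ = c * (α * t₁ * S + t₂) := by ring
  have eab2 : c * (α * t₁) * S ^ 2 + c * t₂ = c * (α * t₁ * S ^ 2 + t₂) := by ring
  rw [eab2, eab] at L
  have h1 := sq_le_sq' (abs_le.1 L.1).1 (abs_le.1 L.1).2
  have h2 := sq_le_sq' (abs_le.1 L.2.1).1 (abs_le.1 L.2.1).2
  have h3 := sq_le_sq' (abs_le.1 L.2.2).1 (abs_le.1 L.2.2).2
  have e : (n ^ 2 * (6 * (c * (α * t₁ * S ^ 2 + t₂)))) ^ 2 =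
    36 * n ^ 4 * c ^ 2 * (α * t₁ * S ^ 2 + t₂) ^ 2 := by ring
  have e' : (n ^ 2 * (10 * (c * (α * t₁ * S + t₂)))) ^ 2 =
      100 * n ^ 4 * c ^ 2 * (α * t₁ * S + t₂) ^ 2 := by ring
  rw [e] at h1 h2
  rw [e'] at h3
  exact ⟨by linarith, h3⟩

theorem Hp.l : (sx s₁).Λ χ z ^ 2 + (sy s₂).Λ χ z ^ 2 ≤
      ZB (KB n c cW A) α En ρ N T₁ T₂ z * eB En z ∧
    hB En ρ z * ((sx s₁).Λ χ z ^ 2 + (sy s₂).Λ χ z ^ 2) ≤
      ZB (KB n c cW A) α En ρ N T₁ T₂ z * fB En ρ N z ∧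
    ((sx s₁).Λ χ z - (sy s₂).Λ χ z) ^ 2 ≤
      ZB (KB n c cW A) α En ρ N T₁ T₂ z * fB En ρ N z := by
  obtain ⟨K1, K2, K3, K4, K5, K0⟩ := KB_big (n := n) (c := c) (A := A) H.W0
  have h0 := H.sc.nr.m0
  have hE := H.sc.nr.E0
  have hq := H.sc.Q0
  have p0 : 0 ≤ (n : ℝ) ^ 4 * c ^ 2 := by positivity
  unfold ZB
  rw [mul_assoc (KB n c cW A), mul_assoc (KB n c cW A)]
  refine ⟨?_, ?_, ?_⟩
  · exact stp (a := 72 * n ^ 4 * c ^ 2) (k := 6) H.Lq.1 H.sc.L1 (by positivity)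
      (by unfold eB; positivity) (by linarith)
  · have h2 : hB En ρ z * ((sx s₁).Λ χ z ^ 2 + (sy s₂).Λ χ z ^ 2) ≤
        72 * n ^ 4 * c ^ 2 * ((1 + mB En ρ z) / En z * (α * t₁ * S ^ 2 + t₂) ^ 2) := by
      have := mul_le_mul_of_nonneg_left H.Lq.1 (by positivity : 0 ≤ (1 + mB En ρ z) / En z)
      refine this.trans (le_of_eq ?_); ring
    exact stp (a := 72 * n ^ 4 * c ^ 2) (k := 4) h2 H.sc.L2 (by positivity) H.fB0 (by linarith)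
  · exact stp (a := 100 * n ^ 4 * c ^ 2) (k := 4) H.Lq.2 H.sc.L3 (by positivity) H.fB0
      (by linarith)

theorem Hp.g : ψ z ^ 2 ≤ ZB (KB n c cW A) α En ρ N T₁ T₂ z * gB En ρ z ∧
    hB En ρ z * ψ z ^ 2 ≤ om z ^ 2 ∧
    ψ z ^ 2 ≤ ZB' (KB n c cW A) α En ρ T₁ T₂ z * wB En ρ z ∧
    om z ^ 2 ≤ ZB' (KB n c cW A) α En ρ T₁ T₂ z * wB En ρ z := by
  obtain ⟨K1, K2, K3, K4, K5, K0⟩ := KB_big (n := n) (c := c) (A := A) H.W0
  have h0 := H.sc.nr.m0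
  have hE := H.sc.nr.E0
  have hq := H.sc.Q0
  have AA := sq_nonneg A
  have X0 := H.sc.X0
  have U0 := H.sc.U0
  have e1 : ψ z ^ 2 = A ^ 2 * (α * t₁ * S + t₂) ^ 2 := by rw [H.ψe]; ring
  have e2 : om z ^ 2 = A ^ 2 * (α * t₁ + t₂) ^ 2 := by rw [H.oe]; ring
  rw [e1, e2]
  unfold ZB ZB'
  rw [mul_assoc (KB n c cW A), mul_assoc (KB n c cW A)]
  refine ⟨?_, ?_, ?_, ?_⟩
  · exact stp (a := A ^ 2) (k := 6) le_rfl H.sc.L4 AA (by unfold gB; positivity) (by linarith)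
  · have := mul_le_mul_of_nonneg_left H.sc.L14 AA
    refine le_trans (le_of_eq ?_) this
    unfold hB; ring
  · exact stp (a := A ^ 2) (k := 2) le_rfl H.sc.L10 AA (by unfold wB; positivity) (by linarith)
  · exact stp (a := A ^ 2) (k := 2) le_rfl H.sc.L11 AA (by unfold wB; positivity) (by linarith)

theorem Hp.k : ψ z ^ 2 * ∑ i, ((sx s₁).D i W z + (sy s₂).D i W z) ^ 2 ≤
    ZB (KB n c cW A) α En ρ N T₁ T₂ z * fB En ρ N z := by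
  obtain ⟨K1, K2, K3, K4, K5, K0⟩ := KB_big (n := n) (c := c) (A := A) H.W0
  have hn : (0 : ℝ) ≤ n := Nat.cast_nonneg n
  have h1 : ∑ i, ((sx s₁).D i W z + (sy s₂).D i W z) ^ 2 ≤ n * (cW * (N z + mB En ρ z)) ^ 2 :=
    sum_sq fun i => H.Wp i
  have h2 := mul_le_mul_of_nonneg_left h1 (sq_nonneg (ψ z))
  have e1 : ψ z ^ 2 = A ^ 2 * (α * t₁ * S + t₂) ^ 2 := by rw [H.ψe]; ring
  rw [e1] at h2 ⊢
  unfold ZB
  rw [mul_assoc (KB n c cW A)]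
  refine stp (a := A ^ 2 * (n * cW ^ 2)) (k := 6) ?_ H.sc.L5 (by positivity) H.fB0 (by linarith)
  refine h2.trans (le_of_eq ?_); ring

theorem Hp.G4 {f : VV n → ℝ} {b : ℝ} (hf : ∀ i, |(sx s₁).D i f z| ≤ b ∧ |(sy s₂).D i f z| ≤ b) :
    4 * (sx s₁).Γ f f z ≤ 8 * (n * b ^ 2) ∧ 4 * (sy s₂).Γ f f z ≤ 8 * (n * b ^ 2) := by
  have h1 := G_le_D2 H.el₁ f
  have h2 := G_le_D2 H.el₂ f
  have h3 : D2 (sx s₁) f z ≤ n * b ^ 2 := sum_sq fun i => (hf i).1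
  have h4 : D2 (sy s₂) f z ≤ n * b ^ 2 := sum_sq fun i => (hf i).2
  constructor <;> linarith

theorem Hp.b : wB En ρ z * ψ z ^ 2 + 4 * (sx s₁).Γ ψ ψ z + 4 * ψ z ^ 2 * (sx s₁).F W z ≤
      ZB (KB n c cW A) α En ρ N T₁ T₂ z * eB En z ∧
    wB En ρ z * ψ z ^ 2 + 4 * (sy s₂).Γ ψ ψ z + 4 * ψ z ^ 2 * (sy s₂).F W z ≤
      ZB (KB n c cW A) α En ρ N T₁ T₂ z * eB En z := by
  obtain ⟨K1, K2, K3, K4, K5, K0⟩ := KB_big (n := n) (c := c) (A := A) H.W0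
  have hn : (0 : ℝ) ≤ n := Nat.cast_nonneg n
  have G := H.G4 H.ψd
  unfold ZB
  rw [mul_assoc (KB n c cW A), H.ψe]
  exact ⟨H.sc.EB hn H.W0 G.1 H.F₁ K2, H.sc.EB hn H.W0 G.2 H.F₂ K2⟩

theorem Hp.cE : wB En ρ z * om z ^ 2 + 4 * (sx s₁).Γ om om z + 4 * om z ^ 2 * (sx s₁).F W z ≤
      ZB (KB n c cW A) α En ρ N T₁ T₂ z * fB En ρ N z ∧
    wB En ρ z * om z ^ 2 + 4 * (sy s₂).Γ om om z + 4 * om z ^ 2 * (sy s₂).F W z ≤
      ZB (KB n c cW A) α En ρ N T₁ T₂ z * fB En ρ N z := by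
  obtain ⟨K1, K2, K3, K4, K5, K0⟩ := KB_big (n := n) (c := c) (A := A) H.W0
  have hn : (0 : ℝ) ≤ n := Nat.cast_nonneg n
  have G := H.G4 H.od
  unfold ZB
  rw [mul_assoc (KB n c cW A), H.oe]
  exact ⟨H.sc.EC hn H.W0 G.1 H.F₁ K2, H.sc.EC hn H.W0 G.2 H.F₂ K2⟩

theorem Hp.nD : ∑ i, ∑ j, ((sx s₁).D i (fun y => (sx s₁).D j χ y + (sy s₂).D j χ y) z -
    (sy s₂).D i (fun y => (sx s₁).D j χ y + (sy s₂).D j χ y) z) ^ 2 ≤
      ZB (KB n c cW A) α En ρ N T₁ T₂ z * fB En ρ N z := by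
  obtain ⟨K1, K2, K3, K4, K5, K0⟩ := KB_big (n := n) (c := c) (A := A) H.W0
  have eab : c * (α * t₁) * S + c * t₂ = c * (α * t₁ * S + t₂) := by ring
  unfold ZB
  rw [mul_assoc (KB n c cW A)]
  have h1 : ∀ i j, ((sx s₁).D i (fun y => (sx s₁).D j χ y + (sy s₂).D j χ y) z -
      (sy s₂).D i (fun y => (sx s₁).D j χ y + (sy s₂).D j χ y) z) ^ 2 ≤
      4 * c ^ 2 * (α * t₁ * S + t₂) ^ 2 := by
    intro i j
    rw [nd_eq i j]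
    have h2 := H.χc.pq j i
    rw [eab] at h2
    have h3 := sq_le_sq' (abs_le.1 h2).1 (abs_le.1 h2).2
    linarith
  have h4 : ∑ i, ∑ j, ((sx s₁).D i (fun y => (sx s₁).D j χ y + (sy s₂).D j χ y) z -
      (sy s₂).D i (fun y => (sx s₁).D j χ y + (sy s₂).D j χ y) z) ^ 2 ≤
      4 * n ^ 2 * c ^ 2 * (α * t₁ * S + t₂) ^ 2 := by
    refine (Finset.sum_le_sum fun i _ => Finset.sum_le_sum fun j _ => h1 i j).trans
      (le_of_eq ?_)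
    simp only [Finset.sum_const, Finset.card_univ, Fintype.card_fin, nsmul_eq_mul]
    ring
  exact stp (a := 4 * n ^ 2 * c ^ 2) (k := 4) h4 H.sc.L3 (by positivity) H.fB0 (by linarith)

/-- **The cut-off conditions of zone B1 at a point.** -/
theorem Hp.ho : HO' s₁ s₂ W χ ψ om (wB En ρ) (gB En ρ) (eB En) (hB En ρ) (fB En ρ N)
      (ZB (KB n c cW A) α En ρ N T₁ T₂) (ZB' (KB n c cW A) α En ρ T₁ T₂) z := by
  obtain ⟨K1, K2, K3, K4, K5, K0⟩ := KB_big (n := n) (c := c) (A := A) H.W0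
  have hm := H.sc.nr.m0
  have hE := H.sc.nr.E0
  have Q0 := H.sc.Q0
  have X0 := H.sc.X0
  have U0 := H.sc.U0
  exact
    { w0 := by unfold wB; positivity
      h0 := by unfold hB; positivity
      g0 := by unfold gB; positivity
      e0 := by unfold eB; positivity
      Z0 := mul_nonneg K0 Q0
      z0 := mul_nonneg K0 (by positivity)
      f0 := by unfold fB; positivity
      d1 := H.d1.1
      d2 := H.d1.2.1
      dd := H.d1.2.2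
      l1 := H.l.1
      l2 := H.l.2.1
      l3 := H.l.2.2
      hw := H.g.2.1
      od := H.ogr
      gg := H.g.1
      kk := H.k
      b1 := H.b.1
      b2 := H.b.2
      c1 := H.cE.1
      c2 := H.cE.2
      k1 := H.g.2.2.1
      k2 := H.g.2.2.2
      nd := H.nD }

end fields

end Vale.Agent.P088.R2.H867.Z
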