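import Vale.Agent.P088.R2.H932.EP.Sh
import Vale.Agent.P088.R2.H867.EP.Prod

/-!
# P088, stage 3: two scales

`TB S a b f z`: the derivatives of `f` in the directions `p` are at most `a + b`, one derivative in a
direction `q` costs a factor `S` in the first part: `a S + b`, two of them `a S² + b`.
-/

open Set Filter
open scoped Topology ContDiff Matrix

noncomputable section

namespace Vale.Agent.P088.R2.H867.Z

open Vale.Agent.P088.LR Vale.Agent.P088.HY Vale.Agent.P088.R2.H961.GW Vale.Agent.P088.R2.H464.Cu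
open Vale.Agent.P088.R2.H932.EP (JB ep diff_fd ev_diff fd_comp fd2_comp fd2_mul ex_ep ey_ep fd2_lin
  sx_s sy_s Lx_eq Ly_eq)
open Vale.Agent.P088.R2.H644 (Ch.Gr)
open Vale.Agent.P088.R2.H867.EP (on)

variable {n : ℕ}

/-- The second derivative. -/
def d2 (f : VV n → ℝ) (z v w : VV n) : ℝ := fderiv ℝ (fun y => fderiv ℝ f y v) z w

/-- Two scales. -/
structure TB (S a b : ℝ) (f : VV n → ℝ) (z : VV n) : Prop where
  sm : ContDiffAt ℝ 2 f z
  p : ∀ i, |fderiv ℝ f z (ep (Sum.inl i))| ≤ a + b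
  q : ∀ i, |fderiv ℝ f z (ep (Sum.inr i))| ≤ a * S + b
  pp : ∀ i j, |d2 f z (ep (Sum.inl i)) (ep (Sum.inl j))| ≤ a + b
  pq : ∀ i j, |d2 f z (ep (Sum.inl i)) (ep (Sum.inr j))| ≤ a * S + b
  qp : ∀ i j, |d2 f z (ep (Sum.inr i)) (ep (Sum.inl j))| ≤ a * S + b
  qq : ∀ i j, |d2 f z (ep (Sum.inr i)) (ep (Sum.inr j))| ≤ a * S ^ 2 + b

variable {S a b a' b' : ℝ} {f g : VV n → ℝ} {z : VV n}

theorem TB.mono (hS : 0 ≤ S) (h : TB S a b f z) (ha : a ≤ a') (hb : b ≤ b') : TB S a' b' f z where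
  sm := h.sm
  p i := (h.p i).trans (add_le_add ha hb)
  q i := (h.q i).trans (add_le_add (mul_le_mul_of_nonneg_right ha hS) hb)
  pp i j := (h.pp i j).trans (add_le_add ha hb)
  pq i j := (h.pq i j).trans (add_le_add (mul_le_mul_of_nonneg_right ha hS) hb)
  qp i j := (h.qp i j).trans (add_le_add (mul_le_mul_of_nonneg_right ha hS) hb)
  qq i j := (h.qq i j).trans (add_le_add (mul_le_mul_of_nonneg_right ha (sq_nonneg S)) hb)

/-- From helper932's bounds in the natural scale. -/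
theorem TB.of_jb {ρ₀ : ℝ} (hf : JB ep (H932.EP.wt ρ₀) f a a z) (ha : 0 ≤ a) (hS : (√ρ₀)⁻¹ ≤ 2 * S) :
    TB S (4 * a) 0 f z := by
  have h0 : 0 ≤ (√ρ₀)⁻¹ := inv_nonneg.2 (Real.sqrt_nonneg _)
  have h1 := mul_le_mul_of_nonneg_left hS ha
  have h2 : a * ((√ρ₀)⁻¹ * (√ρ₀)⁻¹) ≤ a * ((2 * S) * (2 * S)) :=
    mul_le_mul_of_nonneg_left (mul_le_mul hS hS h0 (h0.trans hS)) ha
  have hS0 : 0 ≤ S := by linarith
  have h3 := mul_nonneg ha hS0
  refine ⟨hf.sm, fun i => ?_, fun i => ?_, fun i j => ?_, fun i j => ?_, fun i j => ?_,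
    fun i j => ?_⟩
  · have := hf.d1 (Sum.inl i)
    simp only [H932.EP.wt, mul_one] at this
    linarith
  · have := hf.d1 (Sum.inr i)
    simp only [H932.EP.wt] at this
    nlinarith
  · have := hf.d2 (Sum.inl i) (Sum.inl j)
    simp only [H932.EP.wt, mul_one] at this
    unfold d2
    linarith
  · have := hf.d2 (Sum.inl i) (Sum.inr j)
    simp only [H932.EP.wt, one_mul] at this
    unfold d2
    nlinarith
  · have := hf.d2 (Sum.inr i) (Sum.inl j)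
    simp only [H932.EP.wt, mul_one] at this
    unfold d2
    nlinarith
  · have := hf.d2 (Sum.inr i) (Sum.inr j)
    simp only [H932.EP.wt] at this
    unfold d2
    refine this.trans (h2.trans (le_of_eq ?_))
    ring

/-- From bounds with the weights `1`. -/
theorem TB.of_jb1 (hf : JB ep (fun _ => 1) f b b z) : TB S 0 b f z := by
  refine ⟨hf.sm, fun i => ?_, fun i => ?_, fun i j => ?_, fun i j => ?_, fun i j => ?_,
    fun i j => ?_⟩
  · have := hf.d1 (Sum.inl i); linarith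
  · have := hf.d1 (Sum.inr i); linarith
  · have := hf.d2 (Sum.inl i) (Sum.inl j); unfold d2; linarith
  · have := hf.d2 (Sum.inl i) (Sum.inr j); unfold d2; linarith
  · have := hf.d2 (Sum.inr i) (Sum.inl j); unfold d2; linarith
  · have := hf.d2 (Sum.inr i) (Sum.inr j); unfold d2; linarith

/-- Functions with vanishing first and second derivative. -/
theorem TB.flat (hf : ContDiffAt ℝ 2 f z) (h1 : ∀ v, fderiv ℝ f z v = 0)
    (h2 : ∀ v w, d2 f z v w = 0) : TB S 0 0 f z := by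
  refine ⟨hf, fun i => ?_, fun i => ?_, fun i j => ?_, fun i j => ?_, fun i j => ?_,
    fun i j => ?_⟩
  all_goals first
    | rw [h1]; simp
    | rw [h2]; simp

/-- The chain rule where the derivatives of the outer function vanish. -/
theorem flat_comp {τ : VV n → ℝ} {φ : ℝ → ℝ} (hτ : ContDiffAt ℝ 2 τ z) (hφ : ContDiff ℝ ∞ φ)
    (h1 : deriv φ (τ z) = 0) (h2 : deriv (deriv φ) (τ z) = 0) :
    ContDiffAt ℝ 2 (fun y => φ (τ y)) z ∧ (∀ v, fderiv ℝ (fun y => φ (τ y)) z v = 0) ∧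
      ∀ v w, d2 (fun y => φ (τ y)) z v w = 0 := by
  have s1 : ContDiff ℝ ∞ (deriv φ) := (contDiff_infty_iff_deriv.1 hφ).2
  have d0 : ∀ t, HasDerivAt φ (deriv φ t) t := fun t =>
    (hφ.differentiable (by simp) t).hasDerivAt
  have d1 : ∀ t, HasDerivAt (deriv φ) (deriv (deriv φ) t) t := fun t =>
    (s1.differentiable (by simp) t).hasDerivAt
  refine ⟨(contDiffAt_infty.1 hφ.contDiffAt 2).comp z hτ, fun v => ?_, fun v w => ?_⟩
  · rw [fd_comp (ev_diff hτ).self_of_nhds (d0 _), h1, zero_mul]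
  · unfold d2
    rw [fd2_comp hτ (Eventually.of_forall d0) (d1 _), h1, h2]
    ring

theorem TB.flat_comp {τ : VV n → ℝ} {φ : ℝ → ℝ} (hτ : ContDiffAt ℝ 2 τ z) (hφ : ContDiff ℝ ∞ φ)
    (h1 : deriv φ (τ z) = 0) (h2 : deriv (deriv φ) (τ z) = 0) : TB S 0 0 (fun y => φ (τ y)) z :=
  have h := H867.Z.flat_comp hτ hφ h1 h2
  TB.flat h.1 h.2.1 h.2.2

theorem d2_mul (hf : ContDiffAt ℝ 2 f z) (hg : ContDiffAt ℝ 2 g z) (v w : VV n) :
    d2 (fun y => f y * g y) z v w = d2 f z v w * g z + fderiv ℝ f z v * fderiv ℝ g z w +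
      (fderiv ℝ f z w * fderiv ℝ g z v + f z * d2 g z v w) := fd2_mul hf hg v w

theorem fd_mul (hf : ContDiffAt ℝ 2 f z) (hg : ContDiffAt ℝ 2 g z) (v : VV n) :
    fderiv ℝ (fun y => f y * g y) z v = f z * fderiv ℝ g z v + g z * fderiv ℝ f z v := by
  rw [fderiv_fun_mul (ev_diff hf).self_of_nhds (ev_diff hg).self_of_nhds]
  simp only [_root_.add_apply, _root_.smul_apply, smul_eq_mul]

/-- **Products** of functions bounded by `1`. -/
theorem TB.mul (hS : 1 ≤ S) (hf : TB S a b f z) (hg : TB S a' b' g z) (f1 : |f z| ≤ 1)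
    (g1 : |g z| ≤ 1) (ha : 0 ≤ a) (hb : 0 ≤ b) (ha' : 0 ≤ a') (hb' : 0 ≤ b') :
    TB S (a + a' + 2 * (a * a' + a * b' + b * a')) (b + b' + 2 * (b * b')) (fun y => f y * g y) z := by
  have key1 : ∀ v {x y : ℝ}, |fderiv ℝ f z v| ≤ x → |fderiv ℝ g z v| ≤ y →
      |fderiv ℝ (fun y => f y * g y) z v| ≤ x + y := by
    intro v x y hx hy
    rw [fd_mul hf.sm hg.sm]
    refine (abs_add_le _ _).trans ?_
    rw [abs_mul, abs_mul]
    have h1 := mul_le_mul f1 hy (abs_nonneg _) zero_le_one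
    have h2 := mul_le_mul g1 hx (abs_nonneg _) zero_le_one
    linarith
  have key2 : ∀ v w {x y X Y x' y' : ℝ}, |d2 f z v w| ≤ X → |d2 g z v w| ≤ Y →
      |fderiv ℝ f z v| ≤ x → |fderiv ℝ f z w| ≤ x' → |fderiv ℝ g z v| ≤ y →
      |fderiv ℝ g z w| ≤ y' → |d2 (fun y => f y * g y) z v w| ≤ X + Y + (x * y' + x' * y) := by
    intro v w x y X Y x' y' hX hY hx hx' hy hy'
    rw [d2_mul hf.sm hg.sm]
    have h1 := mul_le_mul hX g1 (abs_nonneg _) ((abs_nonneg _).trans hX)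
    have h2 := mul_le_mul f1 hY (abs_nonneg _) zero_le_one
    have h3 := mul_le_mul hx hy' (abs_nonneg _) ((abs_nonneg _).trans hx)
    have h4 := mul_le_mul hx' hy (abs_nonneg _) ((abs_nonneg _).trans hx')
    rw [← abs_mul] at h1 h2 h3 h4
    refine (abs_add_le _ _).trans ?_
    have e1 := abs_add_le (d2 f z v w * g z) (fderiv ℝ f z v * fderiv ℝ g z w)
    have e2 := abs_add_le (fderiv ℝ f z w * fderiv ℝ g z v) (f z * d2 g z v w)
    linarith
  have S0 : 0 ≤ S := by linarith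
  have p1 := mul_nonneg ha ha'
  have p2 := mul_nonneg ha hb'
  have p3 := mul_nonneg hb ha'
  have p4 := mul_nonneg hb hb'
  have S2 : S ≤ S ^ 2 := by nlinarith
  have q1 := mul_le_mul_of_nonneg_left hS p1
  have q2 := mul_le_mul_of_nonneg_left hS p2
  have q3 := mul_le_mul_of_nonneg_left hS p3
  have r1 := mul_le_mul_of_nonneg_left S2 p1
  have r2 := mul_le_mul_of_nonneg_left S2 p2
  have r3 := mul_le_mul_of_nonneg_left S2 p3
  have t1 := mul_nonneg p1 S0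
  refine ⟨hf.sm.mul hg.sm, fun i => ?_, fun i => ?_, fun i j => ?_, fun i j => ?_, fun i j => ?_,
    fun i j => ?_⟩
  · refine (key1 _ (hf.p i) (hg.p i)).trans ?_
    linarith
  · refine (key1 _ (hf.q i) (hg.q i)).trans ?_
    nlinarith
  · refine (key2 _ _ (hf.pp i j) (hg.pp i j) (hf.p i) (hf.p j) (hg.p i) (hg.p j)).trans ?_
    nlinarith
  · refine (key2 _ _ (hf.pq i j) (hg.pq i j) (hf.p i) (hf.q j) (hg.p i) (hg.q j)).trans ?_
    nlinarith
  · refine (key2 _ _ (hf.qp i j) (hg.qp i j) (hf.q i) (hf.p j) (hg.q i) (hg.p j)).trans ?_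
    nlinarith
  · refine (key2 _ _ (hf.qq i j) (hg.qq i j) (hf.q i) (hf.q j) (hg.q i) (hg.q j)).trans ?_
    nlinarith

/-! ## The slots -/

section slots

variable {s s₁ s₂ : MF n} {δ₁ κ : ℝ}

theorem TB.dxy (h : TB S a b f z) (hS : 1 ≤ S) (ha : 0 ≤ a) (i : Fin n) :
    |fderiv ℝ f z (Pi.single i 1, 0)| ≤ 3 / 2 * (a * S + b) ∧
    |fderiv ℝ f z (0, Pi.single i 1)| ≤ 3 / 2 * (a * S + b) ∧
    |fderiv ℝ f z (Pi.single i 1, 0) + fderiv ℝ f z (0, Pi.single i 1)| ≤ a + b := by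
  have h1 := h.p i
  have h2 := h.q i
  have h3 := mul_le_mul_of_nonneg_left hS ha
  rw [ex_ep, ey_ep]
  simp only [map_add, map_smul, smul_eq_mul]
  refine ⟨?_, ?_, ?_⟩
  · rw [abs_le] at h1 h2 ⊢
    constructor <;> linarith [h1.1, h1.2, h2.1, h2.2]
  · rw [abs_le] at h1 h2 ⊢
    constructor <;> linarith [h1.1, h1.2, h2.1, h2.2]
  · rw [abs_le] at h1 h2 ⊢
    constructor <;> linarith [h1.1, h1.2, h2.1, h2.2]

theorem TB.dxy2 (h : TB S a b f z) (hS : 1 ≤ S) (ha : 0 ≤ a) (i j : Fin n) :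
    |fderiv ℝ (fun y => fderiv ℝ f y (Pi.single j 1, 0)) z (Pi.single i 1, 0)| ≤
      9 / 4 * (a * S ^ 2 + b) ∧
    |fderiv ℝ (fun y => fderiv ℝ f y (0, Pi.single j 1)) z (0, Pi.single i 1)| ≤
      9 / 4 * (a * S ^ 2 + b) ∧
    |fderiv ℝ (fun y => fderiv ℝ f y (Pi.single j 1, 0)) z (Pi.single i 1, 0) -
      fderiv ℝ (fun y => fderiv ℝ f y (0, Pi.single j 1)) z (0, Pi.single i 1)| ≤
      2 * (a * S + b) := by
  have h1 := h.pp j i
  have h2 := h.pq j i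
  have h3 := h.qp j i
  have h4 := h.qq j i
  unfold d2 at h1 h2 h3 h4
  have h5 := mul_le_mul_of_nonneg_left hS ha
  have S2 : S ≤ S ^ 2 := by nlinarith
  have h6 := mul_le_mul_of_nonneg_left S2 ha
  rw [ex_ep, ex_ep, ey_ep, ey_ep, fd2_lin h.sm, fd2_lin h.sm]
  refine ⟨?_, ?_, ?_⟩
  · rw [abs_le] at h1 h2 h3 h4 ⊢
    constructor <;> linarith [h1.1, h1.2, h2.1, h2.2, h3.1, h3.2, h4.1, h4.2]
  · rw [abs_le] at h1 h2 h3 h4 ⊢
    constructor <;> linarith [h1.1, h1.2, h2.1, h2.2, h3.1, h3.2, h4.1, h4.2]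
  · rw [abs_le] at h1 h2 h3 h4 ⊢
    constructor <;> linarith [h1.1, h1.2, h2.1, h2.2, h3.1, h3.2, h4.1, h4.2]

/-- The metrics at the two points. -/
structure Mt (s₁ s₂ : MF n) (S : ℝ) (z : VV n) : Prop where
  d₁ : ∀ i j, DifferentiableAt ℝ (fun x => s₁ x i j) z.1
  d₂ : ∀ i j, DifferentiableAt ℝ (fun x => s₂ x i j) z.2
  b₁ : ∀ i j, |s₁ z.1 i j| ≤ 2
  b₂ : ∀ i j, |s₂ z.2 i j| ≤ 2
  p₁ : ∀ k i j, |pd k (fun y => s₁ y i j) z.1| ≤ 1
  p₂ : ∀ k i j, |pd k (fun y => s₂ y i j) z.2| ≤ 1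
  k : ∀ i j, |s₁ z.1 i j - s₂ z.2 i j| * S ≤ 1

theorem TB.L (h : TB S a b f z) (m : Mt s₁ s₂ S z) (hS : 1 ≤ S) (ha : 0 ≤ a) (hb : 0 ≤ b) :
    |(sx s₁).Λ f z| ≤ n ^ 2 * (6 * (a * S ^ 2 + b)) ∧
    |(sy s₂).Λ f z| ≤ n ^ 2 * (6 * (a * S ^ 2 + b)) ∧
    |(sx s₁).Λ f z - (sy s₂).Λ f z| ≤ n ^ 2 * (10 * (a * S + b)) := by
  have S2 : S ≤ S ^ 2 := by nlinarith
  have h6 := mul_le_mul_of_nonneg_left S2 ha
  have aS : 0 ≤ a * S := mul_nonneg ha (by linarith)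
  refine ⟨?_, ?_, ?_⟩
  · rw [Lx_eq m.d₁]
    refine sum_le2 fun i j => ?_
    have k1 := (h.dxy2 hS ha i j).1
    have k2 := (h.dxy hS ha j).1
    refine (abs_add_le _ _).trans ?_
    rw [abs_mul, abs_mul]
    have q1 := mul_le_mul (m.b₁ i j) k1 (abs_nonneg _) (by norm_num)
    have q2 := mul_le_mul (m.p₁ i i j) k2 (abs_nonneg _) (by norm_num)
    linarith
  · rw [Ly_eq m.d₂]
    refine sum_le2 fun i j => ?_
    have k1 := (h.dxy2 hS ha i j).2.1
    have k2 := (h.dxy hS ha j).2.1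
    refine (abs_add_le _ _).trans ?_
    rw [abs_mul, abs_mul]
    have q1 := mul_le_mul (m.b₂ i j) k1 (abs_nonneg _) (by norm_num)
    have q2 := mul_le_mul (m.p₂ i i j) k2 (abs_nonneg _) (by norm_num)
    linarith
  · rw [Lx_eq m.d₁, Ly_eq m.d₂]
    simp only [← Finset.sum_sub_distrib]
    refine sum_le2 fun i j => ?_
    have k1 := (h.dxy2 hS ha i j).2.1
    have k2 := (h.dxy hS ha j).1
    have k3 := (h.dxy hS ha j).2.1
    have k4 := (h.dxy2 hS ha i j).2.2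
    set X := fderiv ℝ (fun y => fderiv ℝ f y (Pi.single j 1, 0)) z (Pi.single i 1, 0)
    set Y := fderiv ℝ (fun y => fderiv ℝ f y (0, Pi.single j 1)) z (0, Pi.single i 1)
    set x := fderiv ℝ f z (Pi.single j 1, 0)
    set y := fderiv ℝ f z (0, Pi.single j 1)
    have q1 : |s₁ z.1 i j * (X - Y)| ≤ 2 * (2 * (a * S + b)) := by
      rw [abs_mul]
      exact mul_le_mul (m.b₁ i j) k4 (abs_nonneg _) (by norm_num)
    have q2 : |(s₁ z.1 i j - s₂ z.2 i j) * Y| ≤ 9 / 4 * (a * S + b) := by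
      rw [abs_mul]
      have hk := m.k i j
      have hk0 := abs_nonneg (s₁ z.1 i j - s₂ z.2 i j)
      have hk1 : |s₁ z.1 i j - s₂ z.2 i j| ≤ 1 := by nlinarith
      have e1 := mul_le_mul_of_nonneg_left k1 hk0
      have e2 := mul_le_mul_of_nonneg_right hk aS
      have e3 := mul_le_mul_of_nonneg_right hk1 hb
      nlinarith
    have q3 : |pd i (fun y => s₁ y i j) z.1 * x| ≤ 1 * (3 / 2 * (a * S + b)) := by
      rw [abs_mul]
      exact mul_le_mul (m.p₁ i i j) k2 (abs_nonneg _) (by norm_num)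
    have q4 : |pd i (fun y => s₂ y i j) z.2 * y| ≤ 1 * (3 / 2 * (a * S + b)) := by
      rw [abs_mul]
      exact mul_le_mul (m.p₂ i i j) k3 (abs_nonneg _) (by norm_num)
    have e : s₁ z.1 i j * X + pd i (fun y => s₁ y i j) z.1 * x -
        (s₂ z.2 i j * Y + pd i (fun y => s₂ y i j) z.2 * y) =
        s₁ z.1 i j * (X - Y) + (s₁ z.1 i j - s₂ z.2 i j) * Y +
          (pd i (fun y => s₁ y i j) z.1 * x - pd i (fun y => s₂ y i j) z.2 * y) := by ring
    rw [e]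
    refine (abs_add_le _ _).trans ((add_le_add ((abs_add_le _ _).trans (add_le_add q1 q2))
      ((abs_sub _ _).trans (add_le_add q3 q4))).trans ?_)
    linarith

theorem TB.D (h : TB S a b f z) (hS : 1 ≤ S) (ha : 0 ≤ a) (hb : 0 ≤ b) (i : Fin n) :
    |(sx s₁).D i f z| ≤ 3 / 2 * (a * S + b) ∧ |(sy s₂).D i f z| ≤ 3 / 2 * (a * S + b) ∧
    |(sx s₁).D i f z + (sy s₂).D i f z| ≤ a + b := by
  rw [Dx1, Dy1]
  exact h.dxy hS ha i

theorem TB.G (h : TB S a b f z) (m : Mt s₁ s₂ S z) (hS : 1 ≤ S) (ha : 0 ≤ a) (hb : 0 ≤ b)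
    (i : Fin n) : |Ch.Gr (sx s₁) f i z + Ch.Gr (sy s₂) f i z| ≤ n * (4 * (a + b)) := by
  unfold Ch.Gr
  rw [← Finset.sum_add_distrib]
  refine sum_le1 fun j => ?_
  rw [sx_s, sy_s, Dx1, Dy1]
  have k := h.dxy hS ha j
  set x := fderiv ℝ f z (Pi.single j 1, 0)
  set y := fderiv ℝ f z (0, Pi.single j 1)
  have e : s₁ z.1 i j * x + s₂ z.2 i j * y = s₁ z.1 i j * (x + y) -
      (s₁ z.1 i j - s₂ z.2 i j) * y := by ring
  rw [e]
  refine (abs_sub _ _).trans ?_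
  rw [abs_mul, abs_mul]
  have q1 := mul_le_mul (m.b₁ i j) k.2.2 (abs_nonneg _) (by norm_num : (0 : ℝ) ≤ 2)
  have hk := m.k i j
  have hk0 := abs_nonneg (s₁ z.1 i j - s₂ z.2 i j)
  have hk1 : |s₁ z.1 i j - s₂ z.2 i j| ≤ 1 := by nlinarith
  have e1 := mul_le_mul_of_nonneg_left k.2.1 hk0
  have e2 := mul_le_mul_of_nonneg_right hk ha
  have e3 := mul_le_mul_of_nonneg_right hk1 hb
  nlinarith

end slots

end Vale.Agent.P088.R2.H867.Z
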